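import Crest.Agent.R163.Q3.D.L9.Par
import Crest.Agent.R163.Q3.D.FL9.F0
import Crest.Agent.R163.Q3.D.FL9.F1
import Crest.Agent.R163.Q3.D.FL9.F2
import Crest.Agent.R163.Q3.D.FL9.F3
import Crest.Agent.R163.Q3.D.FL9.F4
import Crest.Agent.R163.Q3.D.FL9.F5
import Crest.Agent.R163.Q3.D.FL9.F6
import Crest.Agent.R163.Q3.D.FL9.F7
import Crest.Agent.R163.Q3.D.FL9.F8
import Crest.Agent.R163.Q3.D.FL9.F9
import Crest.Agent.R163.Q3.D.FL9.F10
import Crest.Agent.R163.Q3.D.FL9.F11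
import Crest.Agent.R163.Q3.D.FL9.F12
import Crest.Agent.R163.Q3.D.FL9.F13
import Crest.Agent.R163.Q3.D.FL9.F14
import Crest.Agent.R163.Q3.D.FL9.F15
import Crest.Agent.R163.Q3.D.FL9.F16
import Crest.Agent.R163.Q3.D.FL9.F17

set_option autoImplicit false
set_option maxRecDepth 100000
set_option linter.all false
set_option Elab.async false

namespace Crest.Agent.R163.L9

abbrev f0 := FL9.f0
theorem hf0 : FitOK par f0 :=
  FitOK.of_list [1,2,3,4,5] (by decide +kernel) FL9.lf0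
abbrev f1 := FL9.f1
theorem hf1 : FitOK par f1 :=
  FitOK.of_list [1,2,3,4,5] (by decide +kernel) FL9.lf1
abbrev f2 := FL9.f2
theorem hf2 : FitOK par f2 :=
  FitOK.of_list [1,2,3,4,5] (by decide +kernel) FL9.lf2
abbrev f3 := FL9.f3
theorem hf3 : FitOK par f3 :=
  FitOK.of_list [1,2,3,4,5] (by decide +kernel) FL9.lf3
abbrev f4 := FL9.f4
theorem hf4 : FitOK par f4 :=
  FitOK.of_list [1,2,3,4,5] (by decide +kernel) FL9.lf4
abbrev f5 := FL9.f5
theorem hf5 : FitOK par f5 :=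
  FitOK.of_list [1,2,3,4,5] (by decide +kernel) FL9.lf5
abbrev f6 := FL9.f6
theorem hf6 : FitOK par f6 :=
  FitOK.of_list [1,2,3,4,5] (by decide +kernel) FL9.lf6
abbrev f7 := FL9.f7
theorem hf7 : FitOK par f7 :=
  FitOK.of_list [1,2,3,4,5] (by decide +kernel) FL9.lf7
abbrev f8 := FL9.f8
theorem hf8 : FitOK par f8 :=
  FitOK.of_list [1,2,3,4,5] (by decide +kernel) FL9.lf8
abbrev f9 := FL9.f9
theorem hf9 : FitOK par f9 :=
  FitOK.of_list [1,2,3,4,5] (by decide +kernel) FL9.lf9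
abbrev f10 := FL9.f10
theorem hf10 : FitOK par f10 :=
  FitOK.of_list [1,2,3,4,5] (by decide +kernel) FL9.lf10
abbrev f11 := FL9.f11
theorem hf11 : FitOK par f11 :=
  FitOK.of_list [1,2,3,4,5] (by decide +kernel) FL9.lf11
abbrev f12 := FL9.f12
theorem hf12 : FitOK par f12 :=
  FitOK.of_list [1,2,3,4,5] (by decide +kernel) FL9.lf12
abbrev f13 := FL9.f13
theorem hf13 : FitOK par f13 :=
  FitOK.of_list [1,2,3,4,5] (by decide +kernel) FL9.lf13
abbrev f14 := FL9.f14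
theorem hf14 : FitOK par f14 :=
  FitOK.of_list [1,2,3,4,5] (by decide +kernel) FL9.lf14
abbrev f15 := FL9.f15
theorem hf15 : FitOK par f15 :=
  FitOK.of_list [1,2,3,4,5] (by decide +kernel) FL9.lf15
abbrev f16 := FL9.f16
theorem hf16 : FitOK par f16 :=
  FitOK.of_list [1,2,3,4,5] (by decide +kernel) FL9.lf16
abbrev f17 := FL9.f17
theorem hf17 : FitOK par f17 :=
  FitOK.of_list [1,2,3,4,5] (by decide +kernel) FL9.lf17

end Crest.Agent.R163.L9
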