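import Crest.Agent.R163.Q3.D.L9.S0
import Crest.Agent.R163.Q3.D.L9.H

set_option autoImplicit false
set_option maxRecDepth 100000
set_option linter.all false
set_option Elab.async false

namespace Crest.Agent.R163.L9

theorem p0_15_0 : Ok2 par f15 Box3.unit C0 :=
  Ok2.run hw hf15 ⟨261,19,19,10,12⟩ 58
    (.chk false 1229)
    (by decide +kernel)

theorem p0_16_0 : Ok2 par f16 Box3.unit (selB2 1 C0 1152921504562110463) :=
  Ok2.run hw hf16 ⟨262,19,19,7,12⟩ 58
    (.chk false 614)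
    (by decide +kernel)

theorem p0_16_1 : Ok2 par f16 Box3.unit (selB2 0 C0 1152921504562110463) :=
  Ok2.run hw hf16 ⟨311,25,25,7,13⟩ 58
    (.chk true 0)
    (by decide +kernel)

theorem p0_17_0 : Ok2 par f17 Box3.unit (selB2 1 (selB2 1 (selB2 0 C0 11733805916159) 7180648447) 32767) :=
  Ok2.run hw hf17 ⟨339,25,25,13,13⟩ 58
    (.chk true 0)
    (by decide +kernel)

theorem p0_17_1 : Ok2 par f17 Box3.unit (selB2 0 (selB2 1 (selB2 0 C0 11733805916159) 7180648447) 32767) :=
  Ok2.run hw hf17 ⟨339,25,25,13,13⟩ 58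
    (.chk true 0)
    (by decide +kernel)

theorem p0_17_2 : Ok2 par f17 (Box3.unit.l 0) (selB2 0 (selB2 0 C0 11733805916159) 7180648447) :=
  Ok2.run hw hf17 ⟨435,25,25,13,13⟩ 58
    (.part 1 (.chk true 0) (.split 1 (.chk true 0) (.split 0 (.chk true 0) (.chk true 0))))
    (by decide +kernel)

theorem p0_17_3 : Ok2 par f17 (Box3.unit.r 0) (selB2 0 (selB2 0 C0 11733805916159) 7180648447) :=
  Ok2.run hw hf17 ⟨435,25,25,13,13⟩ 58
    (.part 6 (.chk true 0) (.split 1 (.chk true 0) (.split 0 (.chk true 0) (.chk true 0))))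
    (by decide +kernel)

theorem p0_17_4 : Ok2 par f17 Box3.unit (selB2 1 C0 11733805916159) :=
  Ok2.run hw hf17 ⟨289,19,19,13,13⟩ 58
    (.chk false 0)
    (by decide +kernel)


end Crest.Agent.R163.L9
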