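import Crest.Agent.R163.Q3.D.L9.S0

set_option autoImplicit false
set_option maxRecDepth 100000
set_option linter.all false
set_option Elab.async false

namespace Crest.Agent.R163.L9

theorem c0_0 : stepsOK2 par ⟨711,23,12,1,9⟩ b0_0 s0_0 a0_0 = true := by decide +kernel
theorem c0_1 : stepsOK2 par ⟨711,23,12,1,9⟩ b0_1 s0_1 a0_1 = true := by decide +kernel
theorem c1_0 : stepsOK2 par ⟨709,23,12,1,9⟩ b1_0 s1_0 a1_0 = true := by decide +kernel
theorem c2_0 : stepsOK2 par ⟨709,23,12,1,9⟩ b2_0 s2_0 a2_0 = true := by decide +kernel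
theorem c3_0 : stepsOK2 par ⟨714,23,12,1,9⟩ b3_0 s3_0 a3_0 = true := by decide +kernel
theorem c4_0 : stepsOK2 par ⟨716,23,12,1,9⟩ b4_0 s4_0 a4_0 = true := by decide +kernel
theorem c5_0 : stepsOK2 par ⟨717,23,12,1,9⟩ b5_0 s5_0 a5_0 = true := by decide +kernel
theorem c6_0 : stepsOK2 par ⟨712,23,12,1,9⟩ b6_0 s6_0 a6_0 = true := by decide +kernel
theorem c7_0 : stepsOK2 par ⟨718,23,12,1,9⟩ b7_0 s7_0 a7_0 = true := by decide +kernel
theorem c8_0 : stepsOK2 par ⟨718,23,12,1,9⟩ b8_0 s8_0 a8_0 = true := by decide +kernel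

end Crest.Agent.R163.L9
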